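import Vale.Agent.Lib.P329.Groups

namespace Vale.Agent.Results.P329.AbelianByElementary

open Vale.Agent.Lib.P329

/-- Let `G` be a finite group with an abelian subgroup `N` containing all commutators and all
`p`-th powers, for a prime `p` (that is, `N` is an abelian normal subgroup and `G/N` is an
elementary abelian `p`-group). Then every language over a finite alphabet recognized by `G`
has generalized star height at most one. -/
theorem result {G α : Type} [Group G] [Finite G] [Finite α]
    (N : Subgroup G) (hNc : ∀ x ∈ N, ∀ y ∈ N, x * y = y * x)
    (p : ℕ) (hp : p.Prime)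
    (hc : ∀ x y : G, x * y * x⁻¹ * y⁻¹ ∈ N) (hexp : ∀ x : G, x ^ p ∈ N)
    (g : α → G) (S : Set G) :
    GenStarHeightLeOne {w : List α | (w.map g).prod ∈ S} :=
  gsh_le_one_of_abelian_by_elementary N hNc p hp hc hexp g S

end Vale.Agent.Results.P329.AbelianByElementary
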