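import Vale.Agent.Lib.P329.Tick

namespace Vale.Agent.Results.P329.AbelianOverAperiodic

open Vale.Agent.Lib.P329

/-- Let `δ` be a finite deterministic automaton that is counter-free: a state on a cycle of a
word is fixed by that word (equivalently its transition monoid is aperiodic). Let `ω` assign to
each transition a weight in a finite abelian group `A`. Then every language defined by the final
value of the cascade (the state of `δ` together with the sum of the weights along the run) has
generalized star height at most one. -/
theorem result {Q α A : Type} [Finite Q] [Finite α] [AddCommGroup A] [Finite A]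
    (δ : Q → α → Q)
    (hδ : ∀ (w : List α) (q : Q) (k : ℕ), 0 < k →
      (fun p => w.foldl δ p)^[k] q = q → w.foldl δ q = q)
    (ω : Q → α → A) (s₀ : Q × A) (S : Set (Q × A)) :
    GenStarHeightLeOne {w : List α | w.foldl (fun s a => (δ s.1 a, s.2 + ω s.1 a)) s₀ ∈ S} :=
  gsh_le_one_of_cascade δ hδ ω s₀ S

end Vale.Agent.Results.P329.AbelianOverAperiodic
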