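import Vale.Agent.Lib.P329.ClassThree

namespace Vale.Agent.Results.P329.NilpotentClassThree

open Vale.Agent.Lib.P329

/-- Let `G` be a finite nilpotent group of class at most three, that is, with trivial term of
index three of the lower central series (term zero being `G` itself). Then every language over a
finite alphabet recognized by `G` has generalized star height at most one. -/
theorem result {G α : Type} [Group G] [Finite G] [Finite α]
    (hG : (⊤ : Subgroup G).lowerCentralSeries 3 = ⊥)
    (g : α → G) (S : Set G) :
    GenStarHeightLeOne {w : List α | (w.map g).prod ∈ S} :=
  gsh_le_one_of_class_three hG g S

end Vale.Agent.Results.P329.NilpotentClassThree
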