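import Vale.Agent.Lib.P329.Tick

namespace Vale.Agent.Results.P329.SemidirectAperiodic

open Vale.Agent.Lib.P329

/-- Let `A` be a finite abelian group with an additive action of a finite aperiodic monoid `T`,
and let the finite monoid `M` divide the semidirect product of `A` by `T` (with product
`(a, t) (b, u) = (a + t • b, t * u)`): the relation `ρ` between `M` and `A × T` is everywhere
defined, multiplicative, relates the identities, and is injective. Then every language recognized
by `M` has generalized star height at most one. -/
theorem result {M T A α : Type} [Monoid M] [Monoid T] [Finite T] [AddCommGroup A] [Finite A]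
    [DistribMulAction T A] [Finite α]
    (hT : ∀ t : T, ∃ n : ℕ, t ^ n = t ^ (n + 1))
    (ρ : M → A × T → Prop) (h0 : ∀ m, ∃ x, ρ m x) (hone : ρ 1 (0, 1))
    (hmul : ∀ m n x y, ρ m x → ρ n y → ρ (m * n) (x.1 + x.2 • y.1, x.2 * y.2))
    (hinj : ∀ m n x, ρ m x → ρ n x → m = n) (φ : α → M) (S : Set M) :
    GenStarHeightLeOne {w : List α | (w.map φ).prod ∈ S} :=
  gsh_le_one_of_semidirect hT ρ h0 hone hmul hinj φ S

end Vale.Agent.Results.P329.SemidirectAperiodic
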